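import Mathlib

/-!
# P207, second order expansion: Taylor bounds with explicit constants (helper248)
-/

open Set Filter Topology

noncomputable section

namespace Vale.Agent.P207.H248

theorem taylor1 {φ ψ : ℝ → ℝ} {c : ℝ} (h1 : ∀ s, HasDerivAt φ (ψ s) s)
    (hc : ∀ s ∈ Icc (0 : ℝ) 1, |ψ s| ≤ c) {s : ℝ} (hs : s ∈ Icc (0 : ℝ) 1) :
    |φ s - φ 0| ≤ c * s := by
  have h2 := Convex.norm_image_sub_le_of_norm_hasDerivWithin_le (s := Icc (0 : ℝ) 1)
    (f := φ) (f' := ψ) (C := c) (x := 0) (y := s)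
    (fun r _ => (h1 r).hasDerivWithinAt) (fun r hr => hc r hr) (convex_Icc 0 1)
    ⟨le_refl _, zero_le_one⟩ hs
  simpa [abs_of_nonneg hs.1] using h2

theorem taylor2 {φ ψ χ : ℝ → ℝ} {c : ℝ} (h1 : ∀ s, HasDerivAt φ (ψ s) s)
    (h2 : ∀ s, HasDerivAt ψ (χ s) s) (hc : ∀ s ∈ Icc (0 : ℝ) 1, |χ s| ≤ c) {s : ℝ}
    (hs : s ∈ Icc (0 : ℝ) 1) : |φ s - φ 0 - s * ψ 0| ≤ c := by
  have hc0 : 0 ≤ c := (abs_nonneg _).trans (hc 0 ⟨le_refl _, zero_le_one⟩)
  have h3 : ∀ r ∈ Icc (0 : ℝ) 1, |ψ r - ψ 0| ≤ c := fun r hr =>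
    (taylor1 h2 hc hr).trans (mul_le_of_le_one_right hc0 hr.2)
  have h4 : ∀ r, HasDerivAt (fun r => φ r - r * ψ 0) (ψ r - ψ 0) r := by
    intro r
    have h5 := (h1 r).fun_sub ((hasDerivAt_id r).mul_const (ψ 0))
    rw [one_mul] at h5
    exact h5
  have h6 := taylor1 h4 h3 hs
  simp only [zero_mul, sub_zero] at h6
  have h7 : φ s - φ 0 - s * ψ 0 = φ s - s * ψ 0 - φ 0 := by ring
  rw [h7]
  exact h6.trans (mul_le_of_le_one_right hc0 hs.2)

variable {n : ℕ} {A B : ℝ → Fin n → ℝ} {K : ℝ → Fin n → Fin n → ℝ}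

theorem jac_bound (hA : ∀ s i, HasDerivAt (fun s => A s i) (B s i) s)
    (hB : ∀ s i, HasDerivAt (fun s => B s i) (-∑ j, K s j i * A s j) s)
    {κ m : ℝ} (hK : ∀ s ∈ Icc (0 : ℝ) 1, ∀ i j, |K s i j| ≤ κ)
    (hm : ∀ i, |A 0 i| + |B 0 i| ≤ m) (hsmall : n * κ ≤ 1 / 2) :
    ∀ s ∈ Icc (0 : ℝ) 1, ∀ i, |A s i| ≤ 2 * m := by
  intro s hs i
  have h0 : (0 : ℝ) ∈ Icc (0 : ℝ) 1 := ⟨le_refl _, zero_le_one⟩
  have hκ : 0 ≤ κ := (abs_nonneg _).trans (hK 0 h0 i i)
  have hm0 : 0 ≤ m := (add_nonneg (abs_nonneg _) (abs_nonneg _)).trans (hm i)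
  -- the maximum of the components
  have hcont : ContinuousOn (fun s => ‖A s‖) (Icc (0 : ℝ) 1) := by
    have h1 : Continuous A := continuous_pi fun i =>
      continuous_iff_continuousAt.2 fun s => (hA s i).continuousAt
    exact h1.norm.continuousOn
  obtain ⟨s₀, hs₀, hmax⟩ := isCompact_Icc.exists_isMaxOn ⟨0, h0⟩ hcont
  set Q := ‖A s₀‖ with hQ
  have hle : ∀ s ∈ Icc (0 : ℝ) 1, ∀ i, |A s i| ≤ Q := fun s hs i =>
    (norm_le_pi_norm (A s) i).trans (hmax hs)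
  have hsum : ∀ s ∈ Icc (0 : ℝ) 1, ∀ i, |-∑ j, K s j i * A s j| ≤ 1 / 2 * Q := by
    intro s hs i
    rw [abs_neg]
    refine (Finset.abs_sum_le_sum_abs _ _).trans ?_
    have h1 : ∀ j ∈ Finset.univ, |K s j i * A s j| ≤ κ * Q := by
      intro j _
      rw [abs_mul]
      exact mul_le_mul (hK s hs j i) (hle s hs j) (abs_nonneg _) hκ
    refine (Finset.sum_le_card_nsmul _ _ _ h1).trans ?_
    simp only [Finset.card_univ, Fintype.card_fin, nsmul_eq_mul]
    rw [← mul_assoc]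
    exact mul_le_mul_of_nonneg_right hsmall (norm_nonneg _)
  have hb : ∀ s ∈ Icc (0 : ℝ) 1, ∀ i, |A s i| ≤ m + 1 / 2 * Q := by
    intro s hs i
    have h1 := taylor2 (fun s => hA s i) (fun s => hB s i) (fun s hs => hsum s hs i) hs
    have h2 : |A s i| ≤ |A s i - A 0 i - s * B 0 i| + (|A 0 i| + |s * B 0 i|) := by
      have h3 : A s i = (A s i - A 0 i - s * B 0 i) + (A 0 i + s * B 0 i) := by ring
      calc |A s i| = |(A s i - A 0 i - s * B 0 i) + (A 0 i + s * B 0 i)| := by rw [← h3]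
        _ ≤ _ := (abs_add_le _ _).trans (add_le_add le_rfl (abs_add_le _ _))
    have h4 : |s * B 0 i| ≤ |B 0 i| := by
      rw [abs_mul, abs_of_nonneg hs.1]
      exact mul_le_of_le_one_left (abs_nonneg _) hs.2
    linarith [hm i]
  have hQ2 : Q ≤ m + 1 / 2 * Q := by
    rw [hQ]
    refine (pi_norm_le_iff_of_nonneg ?_).2 fun i => hb s₀ hs₀ i
    positivity
  have h5 : Q ≤ 2 * m := by linarith
  exact (hle s hs i).trans h5

theorem jac_taylor (hA : ∀ s i, HasDerivAt (fun s => A s i) (B s i) s)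
    (hB : ∀ s i, HasDerivAt (fun s => B s i) (-∑ j, K s j i * A s j) s)
    {κ κ' m b : ℝ} (hK : ∀ s ∈ Icc (0 : ℝ) 1, ∀ i j, |K s i j| ≤ κ)
    (hK' : ∀ s ∈ Icc (0 : ℝ) 1, ∀ i j, |K s i j - K 0 i j| ≤ κ')
    (hm : ∀ i, |A 0 i| + |B 0 i| ≤ m) (hb : ∀ i, |B 0 i| ≤ b) (hsmall : n * κ ≤ 1 / 2) (i : Fin n) :
    |A 1 i - (A 0 i + B 0 i - 1 / 2 * ∑ j, K 0 j i * A 0 j)| ≤
      n * (κ' * (2 * m) + κ * (b + n * (κ * (2 * m)))) := by
  have h0 : (0 : ℝ) ∈ Icc (0 : ℝ) 1 := ⟨le_refl _, zero_le_one⟩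
  have h11 : (1 : ℝ) ∈ Icc (0 : ℝ) 1 := ⟨zero_le_one, le_refl _⟩
  have hκ : 0 ≤ κ := (abs_nonneg _).trans (hK 0 h0 i i)
  have hκ' : 0 ≤ κ' := (abs_nonneg _).trans (hK' 0 h0 i i)
  have hm0 : 0 ≤ m := (add_nonneg (abs_nonneg _) (abs_nonneg _)).trans (hm i)
  have hle := jac_bound hA hB hK hm hsmall
  have hsum : ∀ s ∈ Icc (0 : ℝ) 1, ∀ i, |-∑ j, K s j i * A s j| ≤ n * (κ * (2 * m)) := by
    intro s hs i
    rw [abs_neg]
    refine (Finset.abs_sum_le_sum_abs _ _).trans ?_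
    have h1 : ∀ j ∈ Finset.univ, |K s j i * A s j| ≤ κ * (2 * m) := by
      intro j _
      rw [abs_mul]
      exact mul_le_mul (hK s hs j i) (hle s hs j) (abs_nonneg _) hκ
    refine (Finset.sum_le_card_nsmul _ _ _ h1).trans ?_
    simp only [Finset.card_univ, Fintype.card_fin, nsmul_eq_mul, le_refl]
  have hdiff : ∀ s ∈ Icc (0 : ℝ) 1, ∀ j, |A s j - A 0 j| ≤ b + n * (κ * (2 * m)) := by
    intro s hs j
    have h1 := taylor2 (fun s => hA s j) (fun s => hB s j) (fun s hs => hsum s hs j) hs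
    have h2 : |A s j - A 0 j| ≤ |A s j - A 0 j - s * B 0 j| + |s * B 0 j| := by
      have h3 : A s j - A 0 j = (A s j - A 0 j - s * B 0 j) + s * B 0 j := by ring
      calc |A s j - A 0 j| = |(A s j - A 0 j - s * B 0 j) + s * B 0 j| := by rw [← h3]
        _ ≤ _ := abs_add_le _ _
    have h4 : |s * B 0 j| ≤ b := by
      rw [abs_mul, abs_of_nonneg hs.1]
      exact (mul_le_of_le_one_left (abs_nonneg _) hs.2).trans (hb j)
    linarith
  have hχ : ∀ s ∈ Icc (0 : ℝ) 1, |-∑ j, K s j i * A s j + ∑ j, K 0 j i * A 0 j| ≤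
      n * (κ' * (2 * m) + κ * (b + n * (κ * (2 * m)))) := by
    intro s hs
    have h1 : -∑ j, K s j i * A s j + ∑ j, K 0 j i * A 0 j =
        -∑ j, ((K s j i - K 0 j i) * A s j + K 0 j i * (A s j - A 0 j)) := by
      rw [← Finset.sum_neg_distrib, ← Finset.sum_neg_distrib, ← Finset.sum_add_distrib]
      exact Finset.sum_congr rfl fun j _ => by ring
    rw [h1, abs_neg]
    refine (Finset.abs_sum_le_sum_abs _ _).trans ?_
    have h2 : ∀ j ∈ Finset.univ, |(K s j i - K 0 j i) * A s j + K 0 j i * (A s j - A 0 j)| ≤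
        κ' * (2 * m) + κ * (b + n * (κ * (2 * m))) := by
      intro j _
      refine (abs_add_le _ _).trans (add_le_add ?_ ?_)
      · rw [abs_mul]
        exact mul_le_mul (hK' s hs j i) (hle s hs j) (abs_nonneg _) hκ'
      · rw [abs_mul]
        exact mul_le_mul (hK 0 h0 j i) (hdiff s hs j) (abs_nonneg _) hκ
    refine (Finset.sum_le_card_nsmul _ _ _ h2).trans ?_
    simp only [Finset.card_univ, Fintype.card_fin, nsmul_eq_mul, le_refl]
  have hφ : ∀ s, HasDerivAt (fun s => A s i + s ^ 2 / 2 * ∑ j, K 0 j i * A 0 j)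
      (B s i + s * ∑ j, K 0 j i * A 0 j) s := by
    intro s
    refine ((hA s i).add (((hasDerivAt_pow 2 s).div_const 2).mul_const _)).congr_deriv ?_
    norm_num
  have hψ : ∀ s, HasDerivAt (fun s => B s i + s * ∑ j, K 0 j i * A 0 j)
      (-∑ j, K s j i * A s j + ∑ j, K 0 j i * A 0 j) s := by
    intro s
    refine ((hB s i).add ((hasDerivAt_id s).mul_const _)).congr_deriv ?_
    simp
  have h2 := taylor2 hφ hψ hχ h11
  have h3 : A 1 i - (A 0 i + B 0 i - 1 / 2 * ∑ j, K 0 j i * A 0 j) =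
      A 1 i + 1 ^ 2 / 2 * ∑ j, K 0 j i * A 0 j - (A 0 i + 0 ^ 2 / 2 * ∑ j, K 0 j i * A 0 j) -
      1 * (B 0 i + 0 * ∑ j, K 0 j i * A 0 j) := by ring
  rw [h3]
  exact h2

/-- the square of the length of `A` for the metric `δ + k'` -/
theorem norm_expand {a b q A : Fin n → ℝ} {k l k' : Fin n → Fin n → ℝ} {C δ : ℝ} (hC : 1 ≤ C)
    (hδ : 0 ≤ δ) (hδ1 : δ ≤ 1) (ha : ∀ i, |a i| ≤ C) (hb : ∀ i, |b i| ≤ C * δ)
    (hq : ∀ i, |q i| ≤ C * δ ^ 2) (hr : ∀ i, |A i - (a i + b i + q i)| ≤ C * δ ^ 3)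
    (hk : ∀ i j, |k i j| ≤ C * δ) (hl : ∀ i j, |l i j| ≤ C * δ ^ 2)
    (hk' : ∀ i j, |k' i j - (k i j + l i j)| ≤ C * δ ^ 3) :
    |∑ i, ∑ j, A i * A j * ((if i = j then 1 else 0) + k' i j) -
      (∑ i, (a i ^ 2 + 2 * a i * b i + b i ^ 2 + 2 * a i * q i) +
        ∑ i, ∑ j, (a i * a j * (k i j + l i j) + (a i * b j + b i * a j) * k i j))| ≤
      100 * (n + n ^ 2) * C ^ 3 * δ ^ 3 := by
  have hC0 : 0 ≤ C := by linarith
  have hd2 : δ ^ 2 ≤ δ := by nlinarith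
  have hd3 : δ ^ 3 ≤ δ ^ 2 := by nlinarith [sq_nonneg δ]
  have hd2' : 0 ≤ δ ^ 2 := by positivity
  have hd3' : 0 ≤ δ ^ 3 := by positivity
  -- differences
  have hd : ∀ i, |A i - (a i + b i)| ≤ 2 * C * δ ^ 2 := by
    intro i
    have h1 : A i - (a i + b i) = (A i - (a i + b i + q i)) + q i := by ring
    rw [h1]
    refine (abs_add_le _ _).trans ?_
    have h2 : C * δ ^ 3 ≤ C * δ ^ 2 := mul_le_mul_of_nonneg_left hd3 hC0
    linarith [hr i, hq i]
  have hc : ∀ i, |A i - a i| ≤ 3 * C * δ := by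
    intro i
    have h1 : A i - a i = (A i - (a i + b i)) + b i := by ring
    rw [h1]
    refine (abs_add_le _ _).trans ?_
    have h2 : C * δ ^ 2 ≤ C * δ := mul_le_mul_of_nonneg_left hd2 hC0
    linarith [hd i, hb i]
  have hCC : C ≤ C ^ 2 := by nlinarith
  have hCCC : C ^ 2 ≤ C ^ 3 := by nlinarith [sq_nonneg C]
  have hsq : ∀ i, |A i * A i - (a i ^ 2 + 2 * a i * b i + b i ^ 2 + 2 * a i * q i)| ≤
      100 * C ^ 3 * δ ^ 3 := by
    intro i
    have h1 : A i * A i - (a i ^ 2 + 2 * a i * b i + b i ^ 2 + 2 * a i * q i) =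
        2 * (a i * (A i - (a i + b i + q i))) + 2 * (b i * (A i - (a i + b i))) +
          (A i - (a i + b i)) * (A i - (a i + b i)) := by ring
    rw [h1]
    refine (abs_add_three _ _ _).trans ?_
    have h2 : |2 * (a i * (A i - (a i + b i + q i)))| ≤ 2 * (C * (C * δ ^ 3)) := by
      rw [abs_mul, abs_mul, abs_of_pos (by norm_num : (0 : ℝ) < 2)]
      gcongr
      · exact ha i
      · exact hr i
    have h3 : |2 * (b i * (A i - (a i + b i)))| ≤ 2 * ((C * δ) * (2 * C * δ ^ 2)) := by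
      rw [abs_mul, abs_mul, abs_of_pos (by norm_num : (0 : ℝ) < 2)]
      gcongr
      · exact hb i
      · exact hd i
    have h4 : |(A i - (a i + b i)) * (A i - (a i + b i))| ≤ (2 * C * δ ^ 2) * (2 * C * δ ^ 2) := by
      rw [abs_mul]
      exact mul_le_mul (hd i) (hd i) (abs_nonneg _) (by positivity)
    have h5 : (2 * C * δ ^ 2) * (2 * C * δ ^ 2) ≤ 4 * C ^ 2 * δ ^ 3 := by
      have h6 : δ ^ 4 ≤ δ ^ 3 := by nlinarith [pow_nonneg hδ 3]
      nlinarith [sq_nonneg C]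
    nlinarith [mul_nonneg (sub_nonneg.2 hCCC) hd3']
  have hmx : ∀ i j, |A i * A j * k' i j - (a i * a j * (k i j + l i j) +
      (a i * b j + b i * a j) * k i j)| ≤ 100 * C ^ 3 * δ ^ 3 := by
    intro i j
    have h1 : A i * A j * k' i j - (a i * a j * (k i j + l i j) +
        (a i * b j + b i * a j) * k i j) =
        a i * a j * (k' i j - (k i j + l i j)) +
        ((A i - a i) * a j + a i * (A j - a j) + (A i - a i) * (A j - a j)) *
          ((k' i j - (k i j + l i j)) + l i j) +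
        ((A i - (a i + b i)) * a j + a i * (A j - (a j + b j)) + (A i - a i) * (A j - a j)) *
          k i j := by ring
    rw [h1]
    refine (abs_add_three _ _ _).trans ?_
    have h2 : |a i * a j * (k' i j - (k i j + l i j))| ≤ (C * C) * (C * δ ^ 3) := by
      rw [abs_mul, abs_mul]
      exact mul_le_mul (mul_le_mul (ha i) (ha j) (abs_nonneg _) hC0) (hk' i j) (abs_nonneg _)
        (by positivity)
    have h3 : |(A i - a i) * a j + a i * (A j - a j) + (A i - a i) * (A j - a j)| ≤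
        15 * C ^ 2 * δ := by
      refine (abs_add_three _ _ _).trans ?_
      have e1 : |(A i - a i) * a j| ≤ (3 * C * δ) * C := by
        rw [abs_mul]; exact mul_le_mul (hc i) (ha j) (abs_nonneg _) (by positivity)
      have e2 : |a i * (A j - a j)| ≤ C * (3 * C * δ) := by
        rw [abs_mul]; exact mul_le_mul (ha i) (hc j) (abs_nonneg _) (by positivity)
      have e3 : |(A i - a i) * (A j - a j)| ≤ (3 * C * δ) * (3 * C * δ) := by
        rw [abs_mul]; exact mul_le_mul (hc i) (hc j) (abs_nonneg _) (by positivity)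
      have e4 : (3 * C * δ) * (3 * C * δ) ≤ 9 * C ^ 2 * δ := by nlinarith [sq_nonneg C]
      nlinarith
    have h4 : |(A i - (a i + b i)) * a j + a i * (A j - (a j + b j)) +
        (A i - a i) * (A j - a j)| ≤ 13 * C ^ 2 * δ ^ 2 := by
      refine (abs_add_three _ _ _).trans ?_
      have e1 : |(A i - (a i + b i)) * a j| ≤ (2 * C * δ ^ 2) * C := by
        rw [abs_mul]; exact mul_le_mul (hd i) (ha j) (abs_nonneg _) (by positivity)
      have e2 : |a i * (A j - (a j + b j))| ≤ C * (2 * C * δ ^ 2) := by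
        rw [abs_mul]; exact mul_le_mul (ha i) (hd j) (abs_nonneg _) (by positivity)
      have e3 : |(A i - a i) * (A j - a j)| ≤ (3 * C * δ) * (3 * C * δ) := by
        rw [abs_mul]; exact mul_le_mul (hc i) (hc j) (abs_nonneg _) (by positivity)
      nlinarith
    have h5 : |(k' i j - (k i j + l i j)) + l i j| ≤ 2 * C * δ ^ 2 := by
      refine (abs_add_le _ _).trans ?_
      have h2 : C * δ ^ 3 ≤ C * δ ^ 2 := mul_le_mul_of_nonneg_left hd3 hC0
      linarith [hk' i j, hl i j]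
    have h6 := mul_le_mul h3 h5 (abs_nonneg _) (by positivity)
    have h7 := mul_le_mul h4 (hk i j) (abs_nonneg _) (by positivity)
    rw [← abs_mul] at h6 h7
    have h8 : (C * C) * (C * δ ^ 3) + 15 * C ^ 2 * δ * (2 * C * δ ^ 2) +
        13 * C ^ 2 * δ ^ 2 * (C * δ) = 44 * (C ^ 3 * δ ^ 3) := by ring
    have h9 : 0 ≤ C ^ 3 * δ ^ 3 := by positivity
    nlinarith
  have hsplit : ∑ i, ∑ j, A i * A j * ((if i = j then 1 else 0) + k' i j) -
      (∑ i, (a i ^ 2 + 2 * a i * b i + b i ^ 2 + 2 * a i * q i) +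
        ∑ i, ∑ j, (a i * a j * (k i j + l i j) + (a i * b j + b i * a j) * k i j)) =
      ∑ i, (A i * A i - (a i ^ 2 + 2 * a i * b i + b i ^ 2 + 2 * a i * q i)) +
      ∑ i, ∑ j, (A i * A j * k' i j - (a i * a j * (k i j + l i j) +
        (a i * b j + b i * a j) * k i j)) := by
    simp only [mul_add, mul_ite, mul_one, mul_zero, Finset.sum_add_distrib, Finset.sum_ite_eq,
      Finset.mem_univ, if_true, Finset.sum_sub_distrib]
    ring
  rw [hsplit]
  refine (abs_add_le _ _).trans ?_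
  have h1 : |∑ i, (A i * A i - (a i ^ 2 + 2 * a i * b i + b i ^ 2 + 2 * a i * q i))| ≤
      n * (100 * C ^ 3 * δ ^ 3) := by
    refine (Finset.abs_sum_le_sum_abs _ _).trans ?_
    refine (Finset.sum_le_card_nsmul _ _ _ fun i _ => hsq i).trans ?_
    simp only [Finset.card_univ, Fintype.card_fin, nsmul_eq_mul, le_refl]
  have h2 : |∑ i, ∑ j, (A i * A j * k' i j - (a i * a j * (k i j + l i j) +
        (a i * b j + b i * a j) * k i j))| ≤ n * (n * (100 * C ^ 3 * δ ^ 3)) := by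
    refine (Finset.abs_sum_le_sum_abs _ _).trans ?_
    refine (Finset.sum_le_card_nsmul _ _ (n * (100 * C ^ 3 * δ ^ 3)) fun i _ => ?_).trans ?_
    · refine (Finset.abs_sum_le_sum_abs _ _).trans ?_
      refine (Finset.sum_le_card_nsmul _ _ _ fun j _ => hmx i j).trans ?_
      simp only [Finset.card_univ, Fintype.card_fin, nsmul_eq_mul, le_refl]
    · simp only [Finset.card_univ, Fintype.card_fin, nsmul_eq_mul, le_refl]
  calc _ ≤ n * (100 * C ^ 3 * δ ^ 3) + n * (n * (100 * C ^ 3 * δ ^ 3)) := add_le_add h1 h2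
    _ = 100 * (n + n ^ 2) * C ^ 3 * δ ^ 3 := by ring

end Vale.Agent.P207.H248
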